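import Vale.Agent.Lib.P080.Defs

namespace Vale.Agent.Lib.P080

open scoped RealInnerProductSpace Topology
open Set Metric Filter

set_option linter.unusedSectionVars false

variable {E : Type*} [NormedAddCommGroup E] [InnerProductSpace ℝ E] [ProperSpace E]

/-- second derivative along a line -/
theorem deriv2_line {φ : E → ℝ} {z : E} (hφ : ContDiffAt ℝ 2 φ z) (v : E) :
    deriv (deriv (fun s : ℝ => φ (z + s • v))) 0 = fderiv ℝ (fderiv ℝ φ) z v v := by
  have hline : ∀ s : ℝ, HasDerivAt (fun s : ℝ => z + s • v) v s := by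
    intro s
    have := ((hasDerivAt_id s).smul_const v).const_add z
    simpa using this
  have hcont : Tendsto (fun s : ℝ => z + s • v) (𝓝 0) (𝓝 z) := by
    have := (hline 0).continuousAt.tendsto
    simpa using this
  have hev : ∀ᶠ x in 𝓝 z, DifferentiableAt ℝ φ x := by
    have := hφ.eventually (by simp)
    filter_upwards [this] with x hx
    exact hx.differentiableAt (by norm_num)
  have h1 : deriv (fun s : ℝ => φ (z + s • v)) =ᶠ[𝓝 0] fun s => fderiv ℝ φ (z + s • v) v := by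
    filter_upwards [hcont.eventually hev] with s hs
    exact (hs.hasFDerivAt.comp_hasDerivAt s (hline s)).deriv
  rw [h1.deriv_eq]
  have hd : DifferentiableAt ℝ (fderiv ℝ φ) z := by
    have : ContDiffAt ℝ 1 (fderiv ℝ φ) z := hφ.fderiv_right (by norm_num)
    exact this.differentiableAt (by norm_num)
  have hd' : HasFDerivAt (fderiv ℝ φ) (fderiv ℝ (fderiv ℝ φ) z) (z + (0:ℝ) • v) := by
    simpa using hd.hasFDerivAt
  have h2 : HasDerivAt (fun s : ℝ => fderiv ℝ φ (z + s • v)) (fderiv ℝ (fderiv ℝ φ) z v) 0 :=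
    hd'.comp_hasDerivAt 0 (hline 0)
  have h3 := h2.clm_apply (hasDerivAt_const (0:ℝ) v)
  simpa using h3.deriv

theorem hasFDerivAt_norm_sub {x x₀ : E} (hx : x ≠ x₀) :
    HasFDerivAt (fun x : E => ‖x - x₀‖) ((‖x - x₀‖⁻¹) • innerSL ℝ (x - x₀)) x := by
  have hne : ‖x - x₀‖ ≠ 0 := by simpa [sub_eq_zero] using hx
  have h1 : HasFDerivAt (fun x : E => x - x₀) (ContinuousLinearMap.id ℝ E) x :=
    (hasFDerivAt_id x).sub_const x₀
  have h2 := h1.norm_sq
  have h3 := h2.sqrt (by positivity)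
  have h4 : (fun x : E => √(‖x - x₀‖ ^ 2)) = fun x : E => ‖x - x₀‖ := by
    funext y
    exact Real.sqrt_sq (norm_nonneg _)
  rw [h4] at h3
  convert h3 using 1
  rw [Real.sqrt_sq (norm_nonneg _)]
  ext v
  simp
  field_simp

/-- the radial test function -/
noncomputable def coneFn (x₀ : E) (c b γ : ℝ) (x : E) : ℝ :=
  c + b * ‖x - x₀‖ - γ * ‖x - x₀‖ ^ 2

theorem coneFn_contDiffAt {x x₀ : E} (c b γ : ℝ) (hx : x ≠ x₀) :
    ContDiffAt ℝ 2 (coneFn x₀ c b γ) x := by
  have hne : x - x₀ ≠ 0 := sub_ne_zero.mpr hx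
  have h1 : ContDiffAt ℝ 2 (fun x : E => x - x₀) x := contDiffAt_id.sub contDiffAt_const
  have h2 : ContDiffAt ℝ 2 (fun x : E => ‖x - x₀‖) x := h1.norm ℝ hne
  unfold coneFn
  exact (contDiffAt_const.add (contDiffAt_const.mul h2)).sub (contDiffAt_const.mul (h2.pow 2))

theorem coneFn_gradient {x x₀ : E} (c b γ : ℝ) (hx : x ≠ x₀) :
    gradient (coneFn x₀ c b γ) x = (b / ‖x - x₀‖ - 2 * γ) • (x - x₀) := by
  have hne : ‖x - x₀‖ ≠ 0 := by simpa [sub_eq_zero] using hx
  apply HasGradientAt.gradient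
  rw [hasGradientAt_iff_hasFDerivAt]
  have h1 := hasFDerivAt_norm_sub hx
  have h2 := ((h1.const_mul b).const_add c).sub ((h1.pow 2).const_mul γ)
  have h3 : HasFDerivAt (coneFn x₀ c b γ) _ x := h2
  refine h3.congr_fderiv ?_
  ext v
  simp
  field_simp

theorem coneFn_infLaplacian {x x₀ : E} (c b γ : ℝ) (hx : x ≠ x₀) :
    infLaplacian (coneFn x₀ c b γ) x = -2 * γ * (b - 2 * γ * ‖x - x₀‖) ^ 2 := by
  have hne : ‖x - x₀‖ ≠ 0 := by simpa [sub_eq_zero] using hx
  unfold infLaplacian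
  rw [coneFn_gradient c b γ hx, ← deriv2_line (coneFn_contDiffAt c b γ hx)]
  set k : ℝ := b / ‖x - x₀‖ - 2 * γ with hk
  set ρ : ℝ := ‖x - x₀‖ with hρ
  have hP : (fun s : ℝ => coneFn x₀ c b γ (x + s • k • (x - x₀))) =ᶠ[𝓝 0]
      fun s : ℝ => c + b * ρ * (1 + s * k) - γ * ρ ^ 2 * (1 + s * k) ^ 2 := by
    have hpos : ∀ᶠ s : ℝ in 𝓝 0, 0 < 1 + s * k := by
      have : Tendsto (fun s : ℝ => 1 + s * k) (𝓝 0) (𝓝 (1 + 0 * k)) :=
        (continuous_const.add (continuous_id.mul continuous_const)).tendsto 0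
      apply this.eventually_const_lt
      simp
    filter_upwards [hpos] with s hs
    have : x + s • k • (x - x₀) - x₀ = (1 + s * k) • (x - x₀) := by
      rw [add_smul, one_smul, mul_smul]; abel
    unfold coneFn
    rw [this, norm_smul, Real.norm_of_nonneg hs.le]
    ring
  rw [hP.deriv.deriv_eq]
  have hd1 : deriv (fun s : ℝ => c + b * ρ * (1 + s * k) - γ * ρ ^ 2 * (1 + s * k) ^ 2)
      = fun s : ℝ => b * ρ * k - γ * ρ ^ 2 * (2 * (1 + s * k) * k) := by
    funext s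
    have h0 : HasDerivAt (fun s : ℝ => 1 + s * k) k s := by
      simpa using ((hasDerivAt_id s).mul_const k).const_add 1
    have := ((h0.const_mul (b * ρ)).const_add c).sub ((h0.pow 2).const_mul (γ * ρ ^ 2))
    have h5 : HasDerivAt (fun s : ℝ => c + b * ρ * (1 + s * k) - γ * ρ ^ 2 * (1 + s * k) ^ 2)
      _ s := this
    rw [h5.deriv]
    simp
  rw [hd1]
  have hd2 : HasDerivAt (fun s : ℝ => b * ρ * k - γ * ρ ^ 2 * (2 * (1 + s * k) * k))
      (- (γ * ρ ^ 2 * (2 * k * k))) 0 := by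
    have h0 : HasDerivAt (fun s : ℝ => 1 + s * k) k 0 := by
      simpa using ((hasDerivAt_id (0:ℝ)).mul_const k).const_add 1
    have := ((((h0.const_mul 2).mul_const k).const_mul (γ * ρ ^ 2)).const_sub (b * ρ * k))
    exact this
  rw [hd2.deriv, hk]
  field_simp

theorem cone_above {u : E → ℝ} {Ω : Set E} (hc : ContinuousOn u Ω) (hs : InfSubharmonicOn u Ω)
    {x₀ : E} {r a : ℝ} (hr : 0 < r) (hB : closedBall x₀ r ⊆ Ω)
    (hsph : ∀ w ∈ sphere x₀ r, u w ≤ u x₀ + a * r) :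
    ∀ y ∈ closedBall x₀ r, u y ≤ u x₀ + a * ‖y - x₀‖ := by
  by_contra hcon
  push Not at hcon
  obtain ⟨y₁, hy₁, hlt⟩ := hcon
  set ρ₁ : ℝ := ‖y₁ - x₀‖ with hρ₁
  have hρ₁r : ρ₁ ≤ r := by simpa [hρ₁, dist_eq_norm] using hy₁
  have hρ₁0 : 0 < ρ₁ := by
    rcases (norm_nonneg (y₁ - x₀)).lt_or_eq with h | h
    · exact h
    · exfalso
      have h0 : y₁ = x₀ := by
        have : ‖y₁ - x₀‖ = 0 := h.symm
        simpa [sub_eq_zero] using this
      rw [hρ₁, h0] at hlt
      simp at hlt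
  set ε₁ : ℝ := u y₁ - u x₀ - a * ρ₁ with hε₁
  have hε₁0 : 0 < ε₁ := by rw [hε₁]; linarith
  obtain ⟨η, hη0, hη1, hη2⟩ : ∃ η : ℝ, 0 < η ∧ η * ρ₁ < ε₁ ∧ a + η ≠ 0 := by
    by_cases h : a + ε₁ / (2 * ρ₁) = 0
    · refine ⟨ε₁ / (3 * ρ₁), by positivity, ?_, ?_⟩
      · have : ε₁ / (3 * ρ₁) * ρ₁ = ε₁ / 3 := by field_simp
        rw [this]; linarith
      · intro h'
        have h3 : ε₁ / (2 * ρ₁) = ε₁ / (3 * ρ₁) := by linarith
        field_simp at h3
        norm_num at h3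
    · refine ⟨ε₁ / (2 * ρ₁), by positivity, ?_, h⟩
      have : ε₁ / (2 * ρ₁) * ρ₁ = ε₁ / 2 := by field_simp
      rw [this]; linarith
  set b : ℝ := a + η with hb
  have hbabs : 0 < |b| := abs_pos.mpr hη2
  set γ : ℝ := min (η / r) (|b| / (4 * r)) with hγ
  have hγ0 : 0 < γ := lt_min (by positivity) (by positivity)
  have hγ1 : γ * r ≤ η := by
    have : γ ≤ η / r := min_le_left _ _
    calc γ * r ≤ η / r * r := by gcongr
      _ = η := by field_simp
  have hγ2 : γ * r ≤ |b| / 4 := by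
    have : γ ≤ |b| / (4 * r) := min_le_right _ _
    calc γ * r ≤ |b| / (4 * r) * r := by gcongr
      _ = |b| / 4 := by field_simp
  set φ : E → ℝ := coneFn x₀ (u x₀) b γ with hφ
  have hφc : Continuous φ := by
    rw [hφ]; unfold coneFn; fun_prop
  have hfc : ContinuousOn (fun x => u x - φ x) (closedBall x₀ r) :=
    (hc.mono hB).sub hφc.continuousOn
  obtain ⟨xs, hxs, hmax⟩ := (isCompact_closedBall x₀ r).exists_isMaxOn ⟨y₁, hy₁⟩ hfc
  have hmax' : ∀ x ∈ closedBall x₀ r, u x - φ x ≤ u xs - φ xs := fun x hx => hmax hx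
  have hfy₁ : 0 < u y₁ - φ y₁ := by
    have : φ y₁ = u x₀ + b * ρ₁ - γ * ρ₁ ^ 2 := rfl
    rw [this]
    have : 0 < γ * ρ₁ ^ 2 := by positivity
    have h2 : b * ρ₁ = a * ρ₁ + η * ρ₁ := by rw [hb]; ring
    linarith
  have hfxs : 0 < u xs - φ xs := lt_of_lt_of_le hfy₁ (hmax' y₁ hy₁)
  have hxs0 : xs ≠ x₀ := by
    intro h
    rw [h] at hfxs
    have : φ x₀ = u x₀ := by simp [hφ, coneFn]
    rw [this] at hfxs
    simp at hfxs
  have hxsr : ‖xs - x₀‖ ≤ r := by simpa [dist_eq_norm] using hxs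
  have hxs1 : ‖xs - x₀‖ ≠ r := by
    intro h
    have hw : xs ∈ sphere x₀ r := by simpa [dist_eq_norm] using h
    have h1 := hsph xs hw
    have : φ xs = u x₀ + b * r - γ * r ^ 2 := by
      simp only [hφ, coneFn, h]
    rw [this] at hfxs
    have h2 : b * r = a * r + η * r := by rw [hb]; ring
    have h3 : γ * r ^ 2 ≤ η * r := by
      calc γ * r ^ 2 = (γ * r) * r := by ring
        _ ≤ η * r := by gcongr
    linarith
  have hxsball : xs ∈ ball x₀ r := by
    have : ‖xs - x₀‖ < r := lt_of_le_of_ne hxsr hxs1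
    simpa [dist_eq_norm] using this
  have hloc : IsLocalMax (fun x => u x - φ x) xs := by
    filter_upwards [isOpen_ball.mem_nhds hxsball] with x hx
    exact hmax' x (ball_subset_closedBall hx)
  have h0 := hs φ xs (hB hxs) (coneFn_contDiffAt _ _ _ hxs0) hloc
  rw [hφ, coneFn_infLaplacian _ _ _ hxs0] at h0
  have hne : b - 2 * γ * ‖xs - x₀‖ ≠ 0 := by
    intro h
    have h1 : |b| = 2 * γ * ‖xs - x₀‖ := by
      have : b = 2 * γ * ‖xs - x₀‖ := by linarith
      rw [this]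
      exact abs_of_nonneg (by positivity)
    have h2 : 2 * γ * ‖xs - x₀‖ ≤ 2 * (γ * r) := by
      have : γ * ‖xs - x₀‖ ≤ γ * r := by gcongr
      linarith
    linarith
  have hpos : 0 < (b - 2 * γ * ‖xs - x₀‖) ^ 2 := by positivity
  have : -2 * γ * (b - 2 * γ * ‖xs - x₀‖) ^ 2 < 0 := by
    have : 0 < γ * (b - 2 * γ * ‖xs - x₀‖) ^ 2 := by positivity
    linarith
  linarith

theorem infLaplacian_neg (φ : E → ℝ) (z : E) :
    infLaplacian (fun x => - φ x) z = - infLaplacian φ z := by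
  unfold infLaplacian
  have h1 : fderiv ℝ (fun x => - φ x) = fun x => - fderiv ℝ φ x := by
    funext x
    exact fderiv_fun_neg
  have h2 : gradient (fun x => - φ x) z = - gradient φ z := by
    unfold gradient
    rw [h1]
    simp
  rw [h1, h2, fderiv_fun_neg]
  simp

theorem InfSuperharmonicOn.neg {u : E → ℝ} {Ω : Set E} (h : InfSuperharmonicOn u Ω) :
    InfSubharmonicOn (fun x => - u x) Ω := by
  intro φ z hz hφ hmax
  have h1 : IsLocalMin (fun x => u x - (fun x => - φ x) x) z := by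
    have := hmax.neg
    refine this.congr ?_
    filter_upwards with x
    ring
  have := h (fun x => - φ x) z hz hφ.neg h1
  rw [infLaplacian_neg] at this
  linarith

theorem InfSubharmonicOn.neg {u : E → ℝ} {Ω : Set E} (h : InfSubharmonicOn u Ω) :
    InfSuperharmonicOn (fun x => - u x) Ω := by
  intro φ z hz hφ hmin
  have h1 : IsLocalMax (fun x => u x - (fun x => - φ x) x) z := by
    have := hmin.neg
    refine this.congr ?_
    filter_upwards with x
    ring
  have := h (fun x => - φ x) z hz hφ.neg h1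
  rw [infLaplacian_neg] at this
  linarith

theorem InfHarmonicOn.neg {u : E → ℝ} {Ω : Set E} (h : InfHarmonicOn u Ω) :
    InfHarmonicOn (fun x => - u x) Ω :=
  ⟨ContinuousOn.neg h.1, h.2.2.neg, h.2.1.neg⟩

theorem InfHarmonicOn.mono {u : E → ℝ} {Ω U : Set E} (h : InfHarmonicOn u Ω) (hU : U ⊆ Ω) :
    InfHarmonicOn u U :=
  ⟨h.1.mono hU, fun φ z hz => h.2.1 φ z (hU hz), fun φ z hz => h.2.2 φ z (hU hz)⟩

theorem cone_below {u : E → ℝ} {Ω : Set E} (hc : ContinuousOn u Ω) (hs : InfSuperharmonicOn u Ω)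
    {x₀ : E} {r a : ℝ} (hr : 0 < r) (hB : closedBall x₀ r ⊆ Ω)
    (hsph : ∀ w ∈ sphere x₀ r, u x₀ - a * r ≤ u w) :
    ∀ y ∈ closedBall x₀ r, u x₀ - a * ‖y - x₀‖ ≤ u y := by
  intro y hy
  have hc' : ContinuousOn (fun x => - u x) Ω := hc.neg
  have := cone_above hc' hs.neg hr hB (a := a) (fun w hw => by have := hsph w hw; linarith) y hy
  linarith

end Vale.Agent.Lib.P080
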