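import Mathlib

/-!
# P080: infinity-harmonic functions (viscosity sense): definitions
-/

namespace Vale.Agent.Lib.P080

variable {E : Type*} [NormedAddCommGroup E] [InnerProductSpace ℝ E] [CompleteSpace E]

/-- The (unnormalised) infinity Laplacian `⟨D²φ(z) ∇φ(z), ∇φ(z)⟩` of `φ` at `z`. -/
noncomputable def infLaplacian (φ : E → ℝ) (z : E) : ℝ :=
  fderiv ℝ (fderiv ℝ φ) z (gradient φ z) (gradient φ z)

/-- Viscosity subsolution of `Δ_∞ u = 0` on `Ω`: whenever `φ` is `C²` near `z ∈ Ω` and `u - φ`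
has a local maximum at `z`, then `Δ_∞ φ (z) ≥ 0`. -/
def InfSubharmonicOn (u : E → ℝ) (Ω : Set E) : Prop :=
  ∀ (φ : E → ℝ) (z : E), z ∈ Ω → ContDiffAt ℝ 2 φ z → IsLocalMax (fun x => u x - φ x) z →
    0 ≤ infLaplacian φ z

/-- Viscosity supersolution of `Δ_∞ u = 0` on `Ω`: whenever `φ` is `C²` near `z ∈ Ω` and `u - φ`
has a local minimum at `z`, then `Δ_∞ φ (z) ≤ 0`. -/
def InfSuperharmonicOn (u : E → ℝ) (Ω : Set E) : Prop :=
  ∀ (φ : E → ℝ) (z : E), z ∈ Ω → ContDiffAt ℝ 2 φ z → IsLocalMin (fun x => u x - φ x) z →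
    infLaplacian φ z ≤ 0

/-- `u` is infinity-harmonic on `Ω`: continuous on `Ω` and a viscosity solution of
`Δ_∞ u = 0` there (all `C²` test functions are used). -/
def InfHarmonicOn (u : E → ℝ) (Ω : Set E) : Prop :=
  ContinuousOn u Ω ∧ InfSubharmonicOn u Ω ∧ InfSuperharmonicOn u Ω

end Vale.Agent.Lib.P080
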