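import Vale.Agent.Lib.P080.Quasi

namespace Vale.Agent.Lib.P080

open scoped RealInnerProductSpace Topology
open Set Metric Filter

set_option linter.unusedSectionVars false

variable {E : Type*} [NormedAddCommGroup E] [InnerProductSpace ℝ E] [ProperSpace E]

theorem quasiconvexOn_neg {u : E → ℝ} {U : Set E} (h : QuasiconcaveOn ℝ U u) :
    QuasiconvexOn ℝ U (fun x => - u x) := by
  intro r
  have := h (-r)
  convert this using 1
  ext x
  simp only [mem_ofPred_eq]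
  constructor
  · rintro ⟨h1, h2⟩; exact ⟨h1, by linarith⟩
  · rintro ⟨h1, h2⟩; exact ⟨h1, by linarith⟩

theorem locSlope_eq_zero_of_fderiv_eq_zero [Nontrivial E] {u : E → ℝ} {Ω : Set E}
    (hΩ : IsOpen Ω) (hu : InfHarmonicOn u Ω) (hq : QuasiconvexOn ℝ Ω u) {x₀ : E} (hx₀ : x₀ ∈ Ω)
    (h0 : fderiv ℝ u x₀ = 0) : locSlope u x₀ = 0 := by
  obtain ⟨n, hn, hH⟩ := exists_normal hΩ hu.1 hq x₀
  have hg := hasGradientAt_of_normal hΩ hu hx₀ hn hH
  have h1 := (hasGradientAt_iff_hasFDerivAt.mp hg).fderiv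
  rw [h0] at h1
  have h2 : locSlope u x₀ • n = 0 := by
    have := h1.symm
    rwa [LinearIsometryEquiv.map_eq_zero_iff] at this
  have h3 : ‖locSlope u x₀ • n‖ = 0 := by rw [h2, norm_zero]
  rw [norm_smul, hn, mul_one, norm_eq_zero] at h3
  exact h3

/-- one patch: `C¹` and critical points are points of local constancy -/
theorem patch [Nontrivial E] {u : E → ℝ} {U : Set E} (hU : IsOpen U) (hu : InfHarmonicOn u U)
    (hq : QuasiconvexOn ℝ U u ∨ QuasiconcaveOn ℝ U u) :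
    ContDiffOn ℝ 1 u U ∧
      ∀ x ∈ U, fderiv ℝ u x = 0 → ∃ r > 0, ∀ z ∈ ball x r, u z = u x := by
  rcases hq with hq | hq
  · refine ⟨contDiffOn_of_quasiconvex hU hu hq, fun x hx h0 => ?_⟩
    exact locally_const_of_locSlope_eq_zero hU hu hq hx
      (locSlope_eq_zero_of_fderiv_eq_zero hU hu hq hx h0)
  · have hq' := quasiconvexOn_neg hq
    have hu' := hu.neg
    refine ⟨?_, fun x hx h0 => ?_⟩
    · have := (contDiffOn_of_quasiconvex hU hu' hq').neg
      simpa using this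
    · have h0' : fderiv ℝ (fun x => - u x) x = 0 := by
        rw [fderiv_fun_neg, h0, neg_zero]
      obtain ⟨r, hr, h⟩ := locally_const_of_locSlope_eq_zero hU hu' hq' hx
        (locSlope_eq_zero_of_fderiv_eq_zero hU hu' hq' hx h0')
      exact ⟨r, hr, fun z hz => by have := h z hz; linarith⟩

theorem main_local {u : E → ℝ} {Ω : Set E} (hΩ : IsOpen Ω) (hu : InfHarmonicOn u Ω)
    (hq : ∀ x ∈ Ω, ∃ U : Set E, IsOpen U ∧ x ∈ U ∧ U ⊆ Ω ∧
      (QuasiconvexOn ℝ U u ∨ QuasiconcaveOn ℝ U u)) :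
    ContDiffOn ℝ 1 u Ω ∧
      (IsPreconnected Ω → (∀ x ∈ Ω, fderiv ℝ u x ≠ 0) ∨ ∃ c, ∀ x ∈ Ω, u x = c) := by
  rcases subsingleton_or_nontrivial E with hsub | hnt
  · refine ⟨?_, fun _ => Or.inr ⟨u 0, fun x _ => by rw [Subsingleton.elim x 0]⟩⟩
    have : u = fun _ => u 0 := by
      funext x; rw [Subsingleton.elim x 0]
    rw [this]
    exact contDiffOn_const
  have hC1 : ContDiffOn ℝ 1 u Ω := by
    apply contDiffOn_of_locally_contDiffOn
    intro x hx
    obtain ⟨U, hU, hxU, hUΩ, hqU⟩ := hq x hx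
    refine ⟨U, hU, hxU, ?_⟩
    exact ((patch hU (hu.mono hUΩ) hqU).1).mono inter_subset_right
  refine ⟨hC1, fun hconn => ?_⟩
  have hcrit : ∀ x ∈ Ω, fderiv ℝ u x = 0 → ∃ r > 0, ∀ z ∈ ball x r, u z = u x := by
    intro x hx h0
    obtain ⟨U, hU, hxU, hUΩ, hqU⟩ := hq x hx
    exact (patch hU (hu.mono hUΩ) hqU).2 x hxU h0
  by_cases hex : ∃ x ∈ Ω, fderiv ℝ u x = 0
  · right
    have hcont : ContinuousOn (fderiv ℝ u) Ω := hC1.continuousOn_fderiv_of_isOpen hΩ le_rfl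
    have hAopen : IsOpen (Ω ∩ fderiv ℝ u ⁻¹' {0}ᶜ) :=
      hcont.isOpen_inter_preimage hΩ isOpen_compl_singleton
    have hZopen : IsOpen {x | x ∈ Ω ∧ fderiv ℝ u x = 0} := by
      rw [isOpen_iff_mem_nhds]
      rintro x ⟨hx, h0⟩
      obtain ⟨r, hr, hconst⟩ := hcrit x hx h0
      filter_upwards [ball_mem_nhds x hr, hΩ.mem_nhds hx] with z hz hzΩ
      refine ⟨hzΩ, ?_⟩
      have hev : u =ᶠ[𝓝 z] fun _ => u x := by
        filter_upwards [isOpen_ball.mem_nhds hz] with y hy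
        exact hconst y hy
      rw [hev.fderiv_eq]
      simp
    have hall : ∀ x ∈ Ω, fderiv ℝ u x = 0 := by
      by_contra hne
      push Not at hne
      obtain ⟨y, hy, hy0⟩ := hne
      obtain ⟨x, hx, hx0⟩ := hex
      have hcover : Ω ⊆ {x | x ∈ Ω ∧ fderiv ℝ u x = 0} ∪ (Ω ∩ fderiv ℝ u ⁻¹' {0}ᶜ) := by
        intro z hz
        by_cases h : fderiv ℝ u z = 0
        · exact Or.inl ⟨hz, h⟩
        · exact Or.inr ⟨hz, h⟩
      obtain ⟨z, _, hz1, hz2⟩ := hconn _ _ hZopen hAopen hcover ⟨x, hx, hx, hx0⟩ ⟨y, hy, hy, hy0⟩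
      exact hz2.2 hz1.2
    exact hΩ.exists_is_const_of_fderiv_eq_zero hconn (hC1.differentiableOn (by norm_num))
      (fun x hx => hall x hx)
  · left
    push Not at hex
    exact hex

end Vale.Agent.Lib.P080
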