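import Vale.Agent.Lib.P080.Tight

namespace Vale.Agent.Lib.P080

open scoped RealInnerProductSpace Topology
open Set Metric Filter

set_option linter.unusedSectionVars false

variable {E : Type*} [NormedAddCommGroup E] [InnerProductSpace ℝ E] [ProperSpace E]

theorem exists_normal [Nontrivial E] {u : E → ℝ} {Ω : Set E} (hΩ : IsOpen Ω)
    (hc : ContinuousOn u Ω) (hq : QuasiconvexOn ℝ Ω u) (x : E) :
    ∃ n : E, ‖n‖ = 1 ∧ ∀ y ∈ Ω, u y < u x → ⟪n, y - x⟫ < 0 := by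
  set s : Set E := {y ∈ Ω | u y < u x} with hs
  have hconv : Convex ℝ s := hq.convex_lt (u x)
  have hopen : IsOpen s := by
    have := hc.isOpen_inter_preimage hΩ (isOpen_Iio (a := u x))
    exact this
  have hx : x ∉ s := fun h => lt_irrefl _ h.2
  obtain ⟨f, hf⟩ := geometric_hahn_banach_open_point hconv hopen hx
  by_cases hem : s = ∅
  · obtain ⟨n, hn⟩ := exists_norm_eq E (zero_le_one)
    refine ⟨n, hn, fun y hy hlt => ?_⟩
    have : y ∈ s := ⟨hy, hlt⟩
    rw [hem] at this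
    exact absurd this (notMem_empty y)
  · obtain ⟨a, ha⟩ := nonempty_iff_ne_empty.mpr hem
    set v : E := (InnerProductSpace.toDual ℝ E).symm f with hv
    have hfv : ∀ y, f y = ⟪v, y⟫ := by
      intro y
      rw [hv, InnerProductSpace.toDual_symm_apply]
    have hv0 : v ≠ 0 := by
      intro h0
      have := hf a ha
      rw [hfv, hfv, h0] at this
      simp at this
    have hvn : 0 < ‖v‖ := norm_pos_iff.mpr hv0
    refine ⟨(‖v‖)⁻¹ • v, ?_, fun y hy hlt => ?_⟩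
    · rw [norm_smul, norm_inv, norm_norm]
      field_simp
    · have := hf y ⟨hy, hlt⟩
      rw [hfv, hfv] at this
      rw [real_inner_smul_left, inner_sub_right]
      have h2 : ⟪v, y⟫ - ⟪v, x⟫ < 0 := by linarith
      exact mul_neg_of_pos_of_neg (by positivity) h2

/-- points of a closed ball touching `x` in direction `n` have nonnegative `n`-height -/
theorem inner_nonneg_of_mem_closedBall {x n y : E} {t : ℝ} (hn : ‖n‖ = 1) (ht : 0 < t)
    (hy : y ∈ closedBall (x + t • n) t) : 0 ≤ ⟪n, y - x⟫ := by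
  rw [mem_closedBall, dist_eq_norm] at hy
  have h1 : y - (x + t • n) = (y - x) - t • n := by abel
  rw [h1] at hy
  have h2 : ‖(y - x) - t • n‖ ^ 2 ≤ t ^ 2 := pow_le_pow_left₀ (norm_nonneg _) hy 2
  rw [norm_sub_sq_real, norm_smul, hn, real_inner_smul_right, Real.norm_of_nonneg ht.le,
    real_inner_comm] at h2
  have h3 : 0 ≤ ‖y - x‖ ^ 2 := by positivity
  have h4 : 0 ≤ t * ⟪n, y - x⟫ := by nlinarith
  exact nonneg_of_mul_nonneg_right h4 ht

theorem key_slope [Nontrivial E] {u : E → ℝ} {Ω : Set E} (hc : ContinuousOn u Ω)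
    (hsup : InfSuperharmonicOn u Ω) {x n : E} {t : ℝ} (hn : ‖n‖ = 1) (ht : 0 < t)
    (hB : closedBall (x + t • n) t ⊆ Ω) (hmin : ∀ y ∈ closedBall (x + t • n) t, u x ≤ u y)
    (hne : (LipSet u x).Nonempty) :
    u (x + t • n) - u x ≤ locSlope u x * t := by
  set w : E := x + t • n with hw
  set A : ℝ := (u w - u x) / t with hA
  have hAt : A * t = u w - u x := by rw [hA]; field_simp
  have hcone := cone_below hc hsup ht hB (a := A) (fun z hz => by
    have := hmin z (sphere_subset_closedBall hz)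
    linarith)
  have hle : A ≤ locSlope u x := by
    apply le_csInf hne
    rintro a ⟨δ, hδ, h⟩
    set s : ℝ := min t (δ / 2) with hs
    have hs0 : 0 < s := lt_min ht (by positivity)
    have hst : s ≤ t := min_le_left _ _
    have hsδ : s < δ := lt_of_le_of_lt (min_le_right _ _) (by linarith)
    have hnorm : ‖x + s • n - x‖ = s := by
      rw [add_sub_cancel_left, norm_smul, hn, Real.norm_of_nonneg hs0.le, mul_one]
    have hyb : x + s • n ∈ ball x δ := by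
      rw [mem_ball, dist_eq_norm, hnorm]; exact hsδ
    have h1 := h _ hyb x (mem_ball_self hδ)
    rw [hnorm] at h1
    have hnorm2 : ‖x + s • n - w‖ = t - s := by
      have : x + s • n - w = -((t - s) • n) := by
        rw [hw, sub_smul]; abel
      rw [this, norm_neg, norm_smul, hn, Real.norm_of_nonneg (by linarith), mul_one]
    have hyw : x + s • n ∈ closedBall w t := by
      rw [mem_closedBall, dist_eq_norm, hnorm2]; linarith
    have h2 := hcone _ hyw
    rw [hnorm2] at h2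
    have h3 : A * s ≤ a * s := by nlinarith
    exact le_of_mul_le_mul_right h3 hs0
  calc u w - u x = A * t := hAt.symm
    _ ≤ locSlope u x * t := by gcongr

/-- the quantitative first-order expansion at one scale -/
theorem expansion_at_scale [Nontrivial E] {u : E → ℝ} {Ω : Set E}
    (hu : InfHarmonicOn u Ω) {x₀ n : E} (hn : ‖n‖ = 1)
    (hH : ∀ y ∈ Ω, u y < u x₀ → ⟪n, y - x₀⟫ < 0)
    {ε' δ t μ : ℝ} (hS : 0 < locSlope u x₀) (hε' : 0 < ε') (ht : 0 < t) (htδ : t < δ)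
    (hB : closedBall x₀ (2 * t) ⊆ Ω)
    (hLip : ∀ y ∈ ball x₀ δ, ∀ z ∈ ball x₀ δ, u y - u z ≤ (locSlope u x₀ + ε') * ‖y - z‖)
    (hμ0 : 0 ≤ μ) (hμ : 20 * (locSlope u x₀ + ε') * ε' ≤ μ ^ 2) :
    ∀ h : E, ‖h‖ ≤ t → |u (x₀ + h) - u x₀ - locSlope u x₀ * ⟪n, h⟫|
      ≤ ε' * t + (locSlope u x₀ + ε') * (‖h‖ ^ 2 / (2 * t)) + ε' * ‖h‖ + μ * ‖h‖ := by
  obtain ⟨z, hz, hzS⟩ := exists_sphere_le hu.1 hu.2.2 ht hB
  obtain ⟨y, hy, hyS⟩ := exists_sphere_ge hu.1 hu.2.1 ht hB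
  have hz' : ‖x₀ - z‖ = t := by
    rw [← dist_eq_norm, dist_comm]; exact hz
  have hy' : ‖y - x₀‖ = t := by
    rw [← dist_eq_norm]; exact hy
  have he : ‖t⁻¹ • (x₀ - z)‖ = 1 := by
    rw [norm_smul, hz', norm_inv, Real.norm_of_nonneg ht.le]; field_simp
  have hf : ‖t⁻¹ • (y - x₀)‖ = 1 := by
    rw [norm_smul, hy', norm_inv, Real.norm_of_nonneg ht.le]; field_simp
  have hze : x₀ - t • (t⁻¹ • (x₀ - z)) = z := by
    rw [smul_smul, mul_inv_cancel₀ ht.ne', one_smul]; abel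
  have hyf : x₀ + t • (t⁻¹ • (y - x₀)) = y := by
    rw [smul_smul, mul_inv_cancel₀ ht.ne', one_smul]; abel
  refine tight_estimate hS hε' ht htδ hLip hn he hf (by rw [hze]; exact hzS)
    (by rw [hyf]; exact hyS) ?_ hμ0 hμ
  intro h hh hlt
  have hmem : x₀ + h ∈ Ω := by
    apply hB
    rw [mem_closedBall, dist_eq_norm, add_sub_cancel_left]
    linarith
  have := hH _ hmem hlt
  rwa [add_sub_cancel_left] at this

theorem hasGradientAt_of_normal [Nontrivial E] {u : E → ℝ} {Ω : Set E} (hΩ : IsOpen Ω)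
    (hu : InfHarmonicOn u Ω) {x₀ n : E} (hx₀ : x₀ ∈ Ω) (hn : ‖n‖ = 1)
    (hH : ∀ y ∈ Ω, u y < u x₀ → ⟪n, y - x₀⟫ < 0) :
    HasGradientAt u (locSlope u x₀ • n) x₀ := by
  rw [hasGradientAt_iff_isLittleO_nhds_zero, Asymptotics.isLittleO_iff]
  intro c hc
  have hne := lipSet_nonempty hΩ hu.1 hu.2.1 hx₀
  have hS0 := locSlope_nonneg hne
  set S : ℝ := locSlope u x₀ with hSdef
  rcases hS0.eq_or_lt with hS | hS
  · -- zero slope
    obtain ⟨δ, hδ, hLip⟩ := locSlope_add_mem hne hc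
    rw [← hSdef, ← hS, zero_add] at hLip
    filter_upwards [ball_mem_nhds (0 : E) hδ] with h hh
    have hmem : x₀ + h ∈ ball x₀ δ := by
      rw [mem_ball, dist_eq_norm, add_sub_cancel_left]
      simpa using hh
    have h1 := hLip _ hmem x₀ (mem_ball_self hδ)
    have h2 := hLip x₀ (mem_ball_self hδ) _ hmem
    rw [norm_sub_rev] at h2
    rw [add_sub_cancel_left] at h1 h2
    rw [← hS, zero_smul, inner_zero_left, sub_zero, Real.norm_eq_abs, abs_le]
    constructor <;> linarith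
  · obtain ⟨r₀, hr₀, hB₀⟩ := Metric.nhds_basis_closedBall.mem_iff.mp (hΩ.mem_nhds hx₀)
    set κ : ℝ := min 1 (c / (2 * (S + 1))) with hκ
    have hκ0 : 0 < κ := lt_min one_pos (by positivity)
    have hκ1 : κ ≤ 1 := min_le_left _ _
    have hκ2 : (S + 1) * κ ≤ c / 2 := by
      have : κ ≤ c / (2 * (S + 1)) := min_le_right _ _
      calc (S + 1) * κ ≤ (S + 1) * (c / (2 * (S + 1))) := by gcongr
        _ = c / 2 := by field_simp
    set ε' : ℝ := min 1 (min (c * κ / 4) (min (c / 4) (c ^ 2 / (320 * (S + 1))))) with hε'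
    have hε'0 : 0 < ε' := by
      refine lt_min one_pos (lt_min (by positivity) (lt_min (by positivity) (by positivity)))
    have hε'1 : ε' ≤ 1 := min_le_left _ _
    have hε'2 : ε' ≤ c * κ / 4 := (min_le_right _ _).trans (min_le_left _ _)
    have hε'3 : ε' ≤ c / 4 := (min_le_right _ _).trans ((min_le_right _ _).trans (min_le_left _ _))
    have hε'4 : 320 * (S + 1) * ε' ≤ c ^ 2 := by
      have : ε' ≤ c ^ 2 / (320 * (S + 1)) :=
        (min_le_right _ _).trans ((min_le_right _ _).trans (min_le_right _ _))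
      calc 320 * (S + 1) * ε' ≤ 320 * (S + 1) * (c ^ 2 / (320 * (S + 1))) := by gcongr
        _ = c ^ 2 := by field_simp
    have hμ : 20 * (S + ε') * ε' ≤ (c / 4) ^ 2 := by
      have h1 : 20 * (S + ε') * ε' ≤ 20 * (S + 1) * ε' := by gcongr
      nlinarith
    obtain ⟨δ, hδ, hLip⟩ := locSlope_add_mem hne hε'0
    have hrad : 0 < κ * min δ (r₀ / 2) := mul_pos hκ0 (lt_min hδ (by positivity))
    filter_upwards [ball_mem_nhds (0 : E) hrad] with h hh
    have hh' : ‖h‖ < κ * min δ (r₀ / 2) := by simpa using hh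
    rw [real_inner_smul_left, Real.norm_eq_abs]
    rcases eq_or_ne h 0 with rfl | hh0
    · simp
    have hhn : 0 < ‖h‖ := norm_pos_iff.mpr hh0
    set t : ℝ := ‖h‖ / κ with ht
    have ht0 : 0 < t := by positivity
    have htκ : t * κ = ‖h‖ := by rw [ht]; field_simp
    have htmin : t < min δ (r₀ / 2) := by
      rw [ht, div_lt_iff₀ hκ0]; linarith
    have htδ : t < δ := lt_of_lt_of_le htmin (min_le_left _ _)
    have htr : t < r₀ / 2 := lt_of_lt_of_le htmin (min_le_right _ _)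
    have hB : closedBall x₀ (2 * t) ⊆ Ω :=
      (closedBall_subset_closedBall (by linarith)).trans hB₀
    have hht : ‖h‖ ≤ t := by
      rw [← htκ]
      calc t * κ ≤ t * 1 := by gcongr
        _ = t := mul_one t
    have hest := expansion_at_scale hu hn hH hS hε'0 ht0 htδ hB hLip (by positivity) hμ h hht
    refine hest.trans ?_
    have e1 : ε' * t ≤ c / 4 * ‖h‖ := by
      calc ε' * t ≤ (c * κ / 4) * t := by gcongr
        _ = c / 4 * (t * κ) := by ring
        _ = c / 4 * ‖h‖ := by rw [htκ]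
    have e2 : (S + ε') * (‖h‖ ^ 2 / (2 * t)) ≤ c / 4 * ‖h‖ := by
      have : ‖h‖ ^ 2 / (2 * t) = κ * ‖h‖ / 2 := by
        rw [← htκ]; field_simp
      rw [this]
      calc (S + ε') * (κ * ‖h‖ / 2) ≤ (S + 1) * (κ * ‖h‖ / 2) := by gcongr
        _ = ((S + 1) * κ) * (‖h‖ / 2) := by ring
        _ ≤ (c / 2) * (‖h‖ / 2) := by gcongr
        _ = c / 4 * ‖h‖ := by ring
    have e3 : ε' * ‖h‖ ≤ c / 4 * ‖h‖ := by gcongr
    linarith

theorem grad_close [Nontrivial E] {u : E → ℝ} {Ω : Set E} (hΩ : IsOpen Ω)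
    (hu : InfHarmonicOn u Ω) {x₀ n₀ x n : E} {ε t S₀ : ℝ}
    (hn₀ : ‖n₀‖ = 1) (hn : ‖n‖ = 1) (hε : 0 < ε) (ht : 0 < t) (hB : closedBall x₀ (3 * t) ⊆ Ω)
    (hexp : ∀ h : E, ‖h‖ ≤ 3 * t → |u (x₀ + h) - u x₀ - S₀ * ⟪n₀, h⟫| ≤ ε * ‖h‖)
    (hx : ‖x - x₀‖ ≤ t) (hH : ∀ y ∈ Ω, u y < u x → ⟪n, y - x⟫ < 0) :
    S₀ * (1 - ⟪n₀, n⟫) ≤ 4 * ε ∧ S₀ - 7 * ε ≤ locSlope u x := by
  obtain ⟨k, hk⟩ : ∃ k : E, k = x - x₀ := ⟨_, rfl⟩
  rw [← hk] at hx
  have hxk : x = x₀ + k := by rw [hk]; abel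
  have hmemΩ : ∀ h : E, ‖h‖ ≤ 3 * t → x₀ + h ∈ Ω := by
    intro h hh
    apply hB
    rw [mem_closedBall, dist_eq_norm, add_sub_cancel_left]; exact hh
  have hxΩ : x ∈ Ω := by rw [hxk]; exact hmemΩ k (by linarith)
  have hk1 := hexp k (by linarith)
  rw [← hxk] at hk1
  have hk2 : ε * ‖k‖ ≤ ε * t := by gcongr
  have hk3 := abs_le.mp hk1
  have hnn : ⟪n₀, n⟫ ≤ 1 := by
    have := real_inner_le_norm n₀ n
    rwa [hn₀, hn, one_mul] at this
  -- (N')
  have hN : S₀ * (1 - ⟪n₀, n⟫) ≤ 4 * ε := by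
    obtain ⟨m, hm⟩ : ∃ m : E, m = n - n₀ := ⟨_, rfl⟩
    have him : ⟪n₀, m⟫ = ⟪n₀, n⟫ - 1 := by
      rw [hm, inner_sub_right, real_inner_self_eq_norm_sq, hn₀]; norm_num
    have him' : ⟪n, m⟫ = 1 - ⟪n₀, n⟫ := by
      rw [hm, inner_sub_right, real_inner_self_eq_norm_sq, hn, real_inner_comm]; norm_num
    have hmn : ‖m‖ ≤ 2 := by
      calc ‖m‖ ≤ ‖n‖ + ‖n₀‖ := by rw [hm]; exact norm_sub_le _ _
        _ = 2 := by rw [hn, hn₀]; norm_num
    have hnorm : ‖k + t • m‖ ≤ 3 * t := by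
      calc ‖k + t • m‖ ≤ ‖k‖ + ‖t • m‖ := norm_add_le _ _
        _ = ‖k‖ + t * ‖m‖ := by rw [norm_smul, Real.norm_of_nonneg ht.le]
        _ ≤ t + t * 2 := by gcongr
        _ = 3 * t := by ring
    have hy := hexp (k + t • m) hnorm
    have hyΩ := hmemΩ _ hnorm
    have hge : u x ≤ u (x₀ + (k + t • m)) := by
      by_contra hlt
      push Not at hlt
      have h1 := hH _ hyΩ hlt
      have h2 : x₀ + (k + t • m) - x = t • m := by rw [hxk]; abel
      rw [h2, real_inner_smul_right, him'] at h1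
      have : 0 ≤ t * (1 - ⟪n₀, n⟫) := mul_nonneg ht.le (by linarith)
      linarith
    have hy2 : ε * ‖k + t • m‖ ≤ ε * (3 * t) := by gcongr
    have hy3 := abs_le.mp hy
    rw [inner_add_right, real_inner_smul_right, him] at hy3
    have h5 : t * (S₀ * (1 - ⟪n₀, n⟫)) ≤ t * (4 * ε) := by nlinarith [hy3.2, hk3.1]
    exact le_of_mul_le_mul_left h5 ht
  refine ⟨hN, ?_⟩
  -- (K)
  have hnorm : ‖k + t • n‖ ≤ 2 * t := by
    calc ‖k + t • n‖ ≤ ‖k‖ + ‖t • n‖ := norm_add_le _ _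
      _ = ‖k‖ + t := by rw [norm_smul, Real.norm_of_nonneg ht.le, hn, mul_one]
      _ ≤ 2 * t := by linarith
  have hw : x + t • n = x₀ + (k + t • n) := by rw [hxk]; abel
  have hBw : closedBall (x + t • n) t ⊆ Ω := by
    refine (closedBall_subset_closedBall' ?_).trans hB
    rw [hw, dist_eq_norm, add_sub_cancel_left]
    linarith
  have hmin : ∀ y ∈ closedBall (x + t • n) t, u x ≤ u y := by
    intro y hy
    by_contra hlt
    push Not at hlt
    have h1 := hH y (hBw hy) hlt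
    have h2 := inner_nonneg_of_mem_closedBall hn ht hy
    linarith
  have hkey := key_slope hu.1 hu.2.2 hn ht hBw hmin (lipSet_nonempty hΩ hu.1 hu.2.1 hxΩ)
  have hy := hexp (k + t • n) (by linarith)
  rw [← hw] at hy
  have hy2 : ε * ‖k + t • n‖ ≤ ε * (2 * t) := by gcongr
  have hy3 := abs_le.mp hy
  rw [inner_add_right, real_inner_smul_right] at hy3
  have h5 : t * (S₀ - 7 * ε) ≤ t * locSlope u x := by nlinarith [hy3.1, hk3.2]
  exact le_of_mul_le_mul_left h5 ht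

/-- upper semicontinuity of the local slope -/
theorem locSlope_usc [Nontrivial E] {u : E → ℝ} {x₀ : E} (hne : (LipSet u x₀).Nonempty)
    {ε : ℝ} (hε : 0 < ε) : ∃ δ > 0, ∀ x ∈ ball x₀ δ, locSlope u x ≤ locSlope u x₀ + ε := by
  obtain ⟨δ, hδ, hLip⟩ := locSlope_add_mem hne hε
  exact ⟨δ, hδ, fun x hx => locSlope_le (lipSet_of_ball hLip hx)⟩

theorem continuousAt_grad [Nontrivial E] {u : E → ℝ} {Ω : Set E} (hΩ : IsOpen Ω)
    (hu : InfHarmonicOn u Ω) (nrm : E → E) (hn1 : ∀ x, ‖nrm x‖ = 1)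
    (hnH : ∀ x, ∀ y ∈ Ω, u y < u x → ⟪nrm x, y - x⟫ < 0) {x₀ : E} (hx₀ : x₀ ∈ Ω) :
    ContinuousAt (fun x => locSlope u x • nrm x) x₀ := by
  have hne := lipSet_nonempty hΩ hu.1 hu.2.1 hx₀
  have hS0 := locSlope_nonneg hne
  set S₀ : ℝ := locSlope u x₀ with hS₀
  set n₀ : E := nrm x₀ with hn₀
  have hgrad := hasGradientAt_of_normal hΩ hu hx₀ (hn1 x₀) (hnH x₀)
  rw [hasGradientAt_iff_isLittleO_nhds_zero, Asymptotics.isLittleO_iff] at hgrad
  rw [Metric.continuousAt_iff]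
  intro ε₀ hε₀
  set ε : ℝ := min (ε₀ / 28) (ε₀ ^ 2 / (128 * (S₀ + 1))) with hε
  have hε0 : 0 < ε := lt_min (by positivity) (by positivity)
  have hε1 : 7 * ε ≤ ε₀ / 4 := by
    have : ε ≤ ε₀ / 28 := min_le_left _ _
    linarith
  have hε2 : 8 * S₀ * ε ≤ (ε₀ / 4) ^ 2 := by
    have h1 : ε ≤ ε₀ ^ 2 / (128 * (S₀ + 1)) := min_le_right _ _
    have h2 : 128 * (S₀ + 1) * ε ≤ ε₀ ^ 2 := by
      calc 128 * (S₀ + 1) * ε ≤ 128 * (S₀ + 1) * (ε₀ ^ 2 / (128 * (S₀ + 1))) := by gcongr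
        _ = ε₀ ^ 2 := by field_simp
    nlinarith
  obtain ⟨r, hr, hexp⟩ := Metric.eventually_nhds_iff_ball.mp (hgrad hε0)
  obtain ⟨r₀, hr₀, hB₀⟩ := Metric.nhds_basis_closedBall.mem_iff.mp (hΩ.mem_nhds hx₀)
  obtain ⟨δ₁, hδ₁, husc⟩ := locSlope_usc hne hε0
  set t : ℝ := min (r / 4) (r₀ / 3) with ht
  have ht0 : 0 < t := lt_min (by positivity) (by positivity)
  have ht1 : 3 * t < r := by
    have : t ≤ r / 4 := min_le_left _ _
    linarith
  have ht2 : 3 * t ≤ r₀ := by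
    have : t ≤ r₀ / 3 := min_le_right _ _
    linarith
  have hB : closedBall x₀ (3 * t) ⊆ Ω := (closedBall_subset_closedBall ht2).trans hB₀
  have hexp' : ∀ h : E, ‖h‖ ≤ 3 * t → |u (x₀ + h) - u x₀ - S₀ * ⟪n₀, h⟫| ≤ ε * ‖h‖ := by
    intro h hh
    have := hexp h (by rw [mem_ball, dist_zero_right]; linarith)
    rwa [real_inner_smul_left, Real.norm_eq_abs] at this
  refine ⟨min t δ₁, lt_min ht0 hδ₁, fun x hx => ?_⟩
  have hx1 : ‖x - x₀‖ ≤ t := by
    rw [← dist_eq_norm]; exact (lt_of_lt_of_le hx (min_le_left _ _)).le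
  have hx2 : x ∈ ball x₀ δ₁ := lt_of_lt_of_le hx (min_le_right _ _)
  obtain ⟨hN, hK⟩ := grad_close hΩ hu (hn1 x₀) (hn1 x) hε0 ht0 hB hexp' hx1 (hnH x)
  have hU := husc x hx2
  set S : ℝ := locSlope u x with hS
  set n : E := nrm x with hn
  have h1 : |S - S₀| ≤ ε₀ / 4 := by
    rw [abs_le]; constructor <;> linarith
  have h2 : S₀ * ‖n - n₀‖ ≤ ε₀ / 4 := by
    apply (sq_le_sq₀ (by positivity) (by positivity)).mp
    have h3 : ‖n - n₀‖ ^ 2 = 2 * (1 - ⟪n₀, n⟫) := by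
      rw [norm_sub_sq_real, hn1 x, hn1 x₀, real_inner_comm]; ring
    calc (S₀ * ‖n - n₀‖) ^ 2 = 2 * S₀ * (S₀ * (1 - ⟪n₀, n⟫)) := by rw [mul_pow, h3]; ring
      _ ≤ 2 * S₀ * (4 * ε) := by gcongr
      _ = 8 * S₀ * ε := by ring
      _ ≤ (ε₀ / 4) ^ 2 := hε2
  rw [dist_eq_norm]
  have h4 : S • n - S₀ • n₀ = (S - S₀) • n + S₀ • (n - n₀) := by
    rw [sub_smul, smul_sub]; abel
  calc ‖S • n - S₀ • n₀‖ = ‖(S - S₀) • n + S₀ • (n - n₀)‖ := by rw [h4]
    _ ≤ ‖(S - S₀) • n‖ + ‖S₀ • (n - n₀)‖ := norm_add_le _ _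
    _ = |S - S₀| + S₀ * ‖n - n₀‖ := by
        rw [norm_smul, norm_smul, hn1 x, mul_one, Real.norm_eq_abs, Real.norm_of_nonneg hS0]
    _ ≤ ε₀ / 4 + ε₀ / 4 := by linarith
    _ < ε₀ := by linarith

theorem contDiffOn_of_hasGradientAt {u : E → ℝ} {Ω : Set E} (hΩ : IsOpen Ω) (G : E → E)
    (hG : ∀ x ∈ Ω, HasGradientAt u (G x) x) (hGc : ∀ x ∈ Ω, ContinuousAt G x) :
    ContDiffOn ℝ 1 u Ω := by
  have h := (contDiffOn_succ_iff_fderiv_of_isOpen (𝕜 := ℝ) (f := u) (n := 0) hΩ).mpr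
  rw [zero_add] at h
  apply h
  refine ⟨fun x hx => (hG x hx).differentiableAt.differentiableWithinAt, by simp, ?_⟩
  rw [contDiffOn_zero]
  have hcongr : ∀ x ∈ Ω, fderiv ℝ u x = InnerProductSpace.toDual ℝ E (G x) := by
    intro x hx
    exact (hasGradientAt_iff_hasFDerivAt.mp (hG x hx)).fderiv
  have hc : ContinuousOn (fun x => InnerProductSpace.toDual ℝ E (G x)) Ω := by
    intro x hx
    exact ((InnerProductSpace.toDual ℝ E).continuous.continuousAt.comp
      (hGc x hx)).continuousWithinAt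
  exact hc.congr hcongr

theorem contDiffOn_of_quasiconvex [Nontrivial E] {u : E → ℝ} {Ω : Set E} (hΩ : IsOpen Ω)
    (hu : InfHarmonicOn u Ω) (hq : QuasiconvexOn ℝ Ω u) : ContDiffOn ℝ 1 u Ω := by
  choose nrm hn1 hnH using fun x => exists_normal hΩ hu.1 hq x
  exact contDiffOn_of_hasGradientAt hΩ (fun x => locSlope u x • nrm x)
    (fun x hx => hasGradientAt_of_normal hΩ hu hx (hn1 x) (hnH x))
    (fun x hx => continuousAt_grad hΩ hu nrm hn1 hnH hx)

theorem normSq_le_of_mem_closedBall {x n y : E} {t : ℝ} (hn : ‖n‖ = 1) (ht : 0 < t)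
    (hy : y ∈ closedBall (x + t • n) t) : ‖y - x‖ ^ 2 ≤ 2 * t * ⟪n, y - x⟫ := by
  rw [mem_closedBall, dist_eq_norm] at hy
  have h1 : y - (x + t • n) = (y - x) - t • n := by abel
  rw [h1] at hy
  have h2 : ‖(y - x) - t • n‖ ^ 2 ≤ t ^ 2 := pow_le_pow_left₀ (norm_nonneg _) hy 2
  rw [norm_sub_sq_real, norm_smul, hn, real_inner_smul_right, Real.norm_of_nonneg ht.le,
    real_inner_comm] at h2
  nlinarith

theorem locally_const_of_locSlope_eq_zero [Nontrivial E] {u : E → ℝ} {Ω : Set E}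
    (hΩ : IsOpen Ω) (hu : InfHarmonicOn u Ω) (hq : QuasiconvexOn ℝ Ω u) {x₀ : E} (hx₀ : x₀ ∈ Ω)
    (hS : locSlope u x₀ = 0) : ∃ r > 0, ∀ z ∈ ball x₀ r, u z = u x₀ := by
  set K : Set E := {y ∈ Ω | u y ≤ u x₀} with hK
  have hKconv : Convex ℝ K := hq (u x₀)
  obtain ⟨r₀, hr₀, hB₀⟩ := Metric.nhds_basis_closedBall.mem_iff.mp (hΩ.mem_nhds hx₀)
  by_cases hint : x₀ ∈ interior K
  · obtain ⟨r, hr, hB⟩ := Metric.nhds_basis_closedBall.mem_iff.mp (mem_interior_iff_mem_nhds.mp hint)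
    exact ⟨r / 3, by positivity, const_of_local_max hu.1 hu.2.1 hr
      (fun y hy => (hB hy).1) (fun y hy => (hB hy).2)⟩
  · exfalso
    by_cases hem : ∀ y ∈ Ω, u x₀ ≤ u y
    · -- global minimum: locally constant, so interior point of K
      have hconst := const_of_local_min hu.1 hu.2.2 hr₀ hB₀ (fun y hy => hem y (hB₀ hy))
      apply hint
      rw [mem_interior_iff_mem_nhds]
      filter_upwards [ball_mem_nhds x₀ (by positivity : 0 < r₀ / 3)] with z hz
      refine ⟨hB₀ (ball_subset_closedBall (ball_subset_ball (by linarith) hz)), ?_⟩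
      exact (hconst z hz).le
    · push Not at hem
      obtain ⟨a, haΩ, halt⟩ := hem
      have hopen : IsOpen {y ∈ Ω | u y < u x₀} :=
        hu.1.isOpen_inter_preimage hΩ (isOpen_Iio (a := u x₀))
      have hsub : {y ∈ Ω | u y < u x₀} ⊆ K := fun y hy => ⟨hy.1, hy.2.le⟩
      have hintne : (interior K).Nonempty := ⟨a, interior_maximal hsub hopen ⟨haΩ, halt⟩⟩
      obtain ⟨f, hf0, hf⟩ := geometric_hahn_banach_of_nonempty_interior_point hKconv hint hintne
      set v : E := (InnerProductSpace.toDual ℝ E).symm f with hv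
      have hfv : ∀ y, f y = ⟪v, y⟫ := by
        intro y
        rw [hv, InnerProductSpace.toDual_symm_apply]
      have hv0 : v ≠ 0 := by
        intro h0
        apply hf0
        ext y
        rw [hfv, h0]; simp
      have hvn : 0 < ‖v‖ := norm_pos_iff.mpr hv0
      set n : E := (‖v‖)⁻¹ • v with hn
      have hn1 : ‖n‖ = 1 := by
        rw [hn, norm_smul, norm_inv, norm_norm]; field_simp
      have hnK : ∀ y ∈ K, ⟪n, y - x₀⟫ ≤ 0 := by
        intro y hy
        have := hf y hy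
        rw [hfv, hfv] at this
        rw [hn, real_inner_smul_left, inner_sub_right]
        exact mul_nonpos_of_nonneg_of_nonpos (by positivity) (by linarith)
      set t : ℝ := r₀ / 2 with ht
      have ht0 : 0 < t := by positivity
      have hBw : closedBall (x₀ + t • n) t ⊆ Ω := by
        refine (closedBall_subset_closedBall' ?_).trans hB₀
        rw [dist_eq_norm, add_sub_cancel_left, norm_smul, hn1, Real.norm_of_nonneg ht0.le]
        rw [ht]; linarith
      have hmin : ∀ y ∈ closedBall (x₀ + t • n) t, u x₀ ≤ u y := by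
        intro y hy
        by_contra hlt
        push Not at hlt
        have h1 := hnK y ⟨hBw hy, hlt.le⟩
        have h2 := normSq_le_of_mem_closedBall hn1 ht0 hy
        have h3 : ‖y - x₀‖ ^ 2 ≤ 0 := by
          have : 2 * t * ⟪n, y - x₀⟫ ≤ 0 :=
            mul_nonpos_of_nonneg_of_nonpos (by positivity) h1
          linarith
        have h4 : ‖y - x₀‖ = 0 := by
          have := sq_nonneg ‖y - x₀‖
          exact pow_eq_zero_iff (two_ne_zero) |>.mp (le_antisymm h3 this)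
        have h5 : y = x₀ := by
          rwa [norm_eq_zero, sub_eq_zero] at h4
        rw [h5] at hlt
        exact lt_irrefl _ hlt
      have hkey := key_slope hu.1 hu.2.2 hn1 ht0 hBw hmin (lipSet_nonempty hΩ hu.1 hu.2.1 hx₀)
      rw [hS, zero_mul] at hkey
      have hwK : x₀ + t • n ∈ K :=
        ⟨hBw (mem_closedBall_self ht0.le), by linarith⟩
      have := hnK _ hwK
      rw [add_sub_cancel_left, real_inner_smul_right, real_inner_self_eq_norm_sq, hn1] at this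
      linarith

end Vale.Agent.Lib.P080
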