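import Vale.Agent.Lib.P080.Cone

namespace Vale.Agent.Lib.P080

open scoped RealInnerProductSpace Topology
open Set Metric Filter

set_option linter.unusedSectionVars false

variable {E : Type*} [NormedAddCommGroup E] [InnerProductSpace ℝ E] [ProperSpace E]

/-- admissible local Lipschitz constants of `u` at `x₀` -/
def LipSet (u : E → ℝ) (x₀ : E) : Set ℝ :=
  {a | ∃ δ > 0, ∀ y ∈ ball x₀ δ, ∀ z ∈ ball x₀ δ, u y - u z ≤ a * ‖y - z‖}

/-- the local slope (pointwise Lipschitz constant) of `u` at `x₀` -/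
noncomputable def locSlope (u : E → ℝ) (x₀ : E) : ℝ := sInf (LipSet u x₀)

theorem lipSet_neg (u : E → ℝ) (x₀ : E) : LipSet (fun x => - u x) x₀ = LipSet u x₀ := by
  ext a
  constructor
  · rintro ⟨δ, hδ, h⟩
    refine ⟨δ, hδ, fun y hy z hz => ?_⟩
    have := h z hz y hy
    rw [norm_sub_rev] at this
    linarith
  · rintro ⟨δ, hδ, h⟩
    refine ⟨δ, hδ, fun y hy z hz => ?_⟩
    have := h z hz y hy
    rw [norm_sub_rev] at this
    linarith

theorem locSlope_neg (u : E → ℝ) (x₀ : E) : locSlope (fun x => - u x) x₀ = locSlope u x₀ := by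
  unfold locSlope
  rw [lipSet_neg]

theorem lipSet_nonneg [Nontrivial E] {u : E → ℝ} {x₀ : E} {a : ℝ} (ha : a ∈ LipSet u x₀) :
    0 ≤ a := by
  obtain ⟨δ, hδ, h⟩ := ha
  obtain ⟨v, hv⟩ := exists_ne (0 : E)
  have hv' : 0 < ‖v‖ := norm_pos_iff.mpr hv
  set y : E := x₀ + (δ / (2 * ‖v‖)) • v with hy
  have hyn : ‖y - x₀‖ = δ / 2 := by
    rw [hy, add_sub_cancel_left, norm_smul, Real.norm_of_nonneg (by positivity)]
    field_simp
  have hyb : y ∈ ball x₀ δ := by
    rw [mem_ball, dist_eq_norm, hyn]; linarith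
  have h1 := h y hyb x₀ (mem_ball_self hδ)
  have h2 := h x₀ (mem_ball_self hδ) y hyb
  rw [norm_sub_rev] at h2
  rw [hyn] at h1 h2
  nlinarith

theorem lipSet_bddBelow [Nontrivial E] (u : E → ℝ) (x₀ : E) : BddBelow (LipSet u x₀) :=
  ⟨0, fun _ ha => lipSet_nonneg ha⟩

theorem lipSet_upward {u : E → ℝ} {x₀ : E} {a a' : ℝ} (ha : a ∈ LipSet u x₀) (h : a ≤ a') :
    a' ∈ LipSet u x₀ := by
  obtain ⟨δ, hδ, hh⟩ := ha
  refine ⟨δ, hδ, fun y hy z hz => (hh y hy z hz).trans ?_⟩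
  gcongr

theorem locSlope_nonneg [Nontrivial E] {u : E → ℝ} {x₀ : E} (hne : (LipSet u x₀).Nonempty) :
    0 ≤ locSlope u x₀ :=
  le_csInf hne (fun _ ha => lipSet_nonneg ha)

theorem locSlope_add_mem [Nontrivial E] {u : E → ℝ} {x₀ : E} (hne : (LipSet u x₀).Nonempty)
    {ε : ℝ} (hε : 0 < ε) : locSlope u x₀ + ε ∈ LipSet u x₀ := by
  obtain ⟨a, ha, hlt⟩ := exists_lt_of_csInf_lt hne (lt_add_of_pos_right (sInf (LipSet u x₀)) hε)
  exact lipSet_upward ha hlt.le

theorem locSlope_le [Nontrivial E] {u : E → ℝ} {x₀ : E} {a : ℝ} (ha : a ∈ LipSet u x₀) :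
    locSlope u x₀ ≤ a :=
  csInf_le (lipSet_bddBelow u x₀) ha

/-- a Lipschitz bound on a ball transfers to every point of the ball -/
theorem lipSet_of_ball {u : E → ℝ} {x₀ x : E} {a δ : ℝ}
    (h : ∀ y ∈ ball x₀ δ, ∀ z ∈ ball x₀ δ, u y - u z ≤ a * ‖y - z‖) (hx : x ∈ ball x₀ δ) :
    a ∈ LipSet u x := by
  refine ⟨δ - dist x x₀, by rw [mem_ball] at hx; linarith, fun y hy z hz => ?_⟩
  have hsub : ball x (δ - dist x x₀) ⊆ ball x₀ δ := by
    apply ball_subset_ball'
    linarith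
  exact h y (hsub hy) z (hsub hz)

theorem sphere_bound_nearby {u : E → ℝ} {Ω : Set E} (hc : ContinuousOn u Ω) {x₀ : E}
    {R m ε : ℝ} (hR : 0 < R) (hB : closedBall x₀ (2 * R) ⊆ Ω)
    (hm : ∀ w ∈ sphere x₀ R, u w - u x₀ ≤ m) (hε : 0 < ε) :
    ∃ δ > 0, δ ≤ R ∧ ∀ z ∈ ball x₀ δ, ∀ w ∈ sphere z R, u w - u z ≤ m + ε := by
  have huc := (isCompact_closedBall x₀ (2 * R)).uniformContinuousOn_of_continuous (hc.mono hB)
  rw [Metric.uniformContinuousOn_iff] at huc
  obtain ⟨δ, hδ, h⟩ := huc (ε / 2) (by positivity)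
  refine ⟨min δ R, lt_min hδ hR, min_le_right _ _, fun z hz w hw => ?_⟩
  have hz1 : dist z x₀ < δ := lt_of_lt_of_le hz (min_le_left _ _)
  have hz2 : dist z x₀ < R := lt_of_lt_of_le hz (min_le_right _ _)
  have hw' : dist w z = R := hw
  set w' : E := w - z + x₀ with hw'def
  have hw's : w' ∈ sphere x₀ R := by
    rw [mem_sphere, dist_eq_norm, hw'def, add_sub_cancel_right, ← dist_eq_norm]; exact hw'
  have hwK : w ∈ closedBall x₀ (2 * R) := by
    rw [mem_closedBall]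
    calc dist w x₀ ≤ dist w z + dist z x₀ := dist_triangle _ _ _
      _ ≤ 2 * R := by linarith
  have hw'K : w' ∈ closedBall x₀ (2 * R) := by
    rw [mem_closedBall, hw's]; linarith
  have hzK : z ∈ closedBall x₀ (2 * R) := by
    rw [mem_closedBall]; linarith
  have hx₀K : x₀ ∈ closedBall x₀ (2 * R) := mem_closedBall_self (by linarith)
  have hd : dist w w' < δ := by
    have : w - w' = z - x₀ := by rw [hw'def]; abel
    rw [dist_eq_norm, this, ← dist_eq_norm]; exact hz1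
  have h1 := h w hwK w' hw'K hd
  have h2 := h z hzK x₀ hx₀K hz1
  rw [Real.dist_eq] at h1 h2
  have h3 := hm w' hw's
  have h4 := (abs_lt.mp h1).2
  have h5 := (abs_lt.mp h2).1
  linarith

theorem lipSet_of_sphere_bound {u : E → ℝ} {Ω : Set E} (hc : ContinuousOn u Ω)
    (hs : InfSubharmonicOn u Ω) {x₀ : E}
    {R m ε : ℝ} (hR : 0 < R) (hB : closedBall x₀ (2 * R) ⊆ Ω)
    (hm : ∀ w ∈ sphere x₀ R, u w - u x₀ ≤ m) (hε : 0 < ε) :
    (m + ε) / R ∈ LipSet u x₀ := by
  obtain ⟨δ, hδ, hδR, h⟩ := sphere_bound_nearby hc hR hB hm hε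
  refine ⟨min δ (R / 2), lt_min hδ (by positivity), fun y hy z hz => ?_⟩
  have hz1 : z ∈ ball x₀ δ := ball_subset_ball (min_le_left _ _) hz
  have hz2 : dist z x₀ < R / 2 := lt_of_lt_of_le hz (min_le_right _ _)
  have hy2 : dist y x₀ < R / 2 := lt_of_lt_of_le hy (min_le_right _ _)
  have hBz : closedBall z R ⊆ Ω := by
    refine (closedBall_subset_closedBall' ?_).trans hB
    linarith
  have hyz : y ∈ closedBall z R := by
    rw [mem_closedBall]
    calc dist y z ≤ dist y x₀ + dist x₀ z := dist_triangle _ _ _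
      _ ≤ R := by rw [dist_comm x₀ z]; linarith
  have := cone_above hc hs hR hBz (a := (m + ε) / R) (fun w hw => by
    have := h z hz1 w hw
    have h2 : (m + ε) / R * R = m + ε := by field_simp
    linarith) y hyz
  linarith

theorem lipSet_nonempty {u : E → ℝ} {Ω : Set E} (hΩ : IsOpen Ω) (hc : ContinuousOn u Ω)
    (hs : InfSubharmonicOn u Ω) {x₀ : E} (hx₀ : x₀ ∈ Ω) : (LipSet u x₀).Nonempty := by
  obtain ⟨r, hr, hB⟩ := Metric.nhds_basis_closedBall.mem_iff.mp (hΩ.mem_nhds hx₀)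
  have hB' : closedBall x₀ (2 * (r / 2)) ⊆ Ω := by
    have : 2 * (r / 2) = r := by ring
    rwa [this]
  have hsub : sphere x₀ (r / 2) ⊆ Ω :=
    (sphere_subset_closedBall.trans (closedBall_subset_closedBall (by linarith))).trans hB
  obtain ⟨M, hM⟩ := ((isCompact_sphere x₀ (r / 2)).bddAbove_image (hc.mono hsub))
  exact ⟨_, lipSet_of_sphere_bound hc hs (by positivity) hB' (m := M - u x₀)
    (fun w hw => by
      have := hM (mem_image_of_mem u hw)
      linarith) one_pos⟩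

theorem exists_sphere_ge [Nontrivial E] {u : E → ℝ} {Ω : Set E} (hc : ContinuousOn u Ω)
    (hs : InfSubharmonicOn u Ω) {x₀ : E} {R : ℝ} (hR : 0 < R) (hB : closedBall x₀ (2 * R) ⊆ Ω) :
    ∃ y ∈ sphere x₀ R, locSlope u x₀ * R ≤ u y - u x₀ := by
  by_contra hcon
  push Not at hcon
  have hsub : sphere x₀ R ⊆ Ω :=
    (sphere_subset_closedBall.trans (closedBall_subset_closedBall (by linarith))).trans hB
  obtain ⟨ys, hys, hmax⟩ := (isCompact_sphere x₀ R).exists_isMaxOn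
    (NormedSpace.sphere_nonempty.mpr hR.le) (hc.mono hsub)
  have hlt := hcon ys hys
  set m : ℝ := u ys - u x₀ with hm
  have hmem := lipSet_of_sphere_bound hc hs hR hB (m := m)
    (fun w hw => by
      have : u w ≤ u ys := hmax hw
      linarith) (ε := (locSlope u x₀ * R - m) / 2) (by linarith)
  have hle := locSlope_le hmem
  rw [le_div_iff₀ hR] at hle
  linarith

theorem exists_sphere_le [Nontrivial E] {u : E → ℝ} {Ω : Set E} (hc : ContinuousOn u Ω)
    (hs : InfSuperharmonicOn u Ω) {x₀ : E} {R : ℝ} (hR : 0 < R)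
    (hB : closedBall x₀ (2 * R) ⊆ Ω) :
    ∃ z ∈ sphere x₀ R, locSlope u x₀ * R ≤ u x₀ - u z := by
  have hc' : ContinuousOn (fun x => - u x) Ω := hc.neg
  obtain ⟨z, hz, h⟩ := exists_sphere_ge hc' hs.neg hR hB
  rw [locSlope_neg] at h
  exact ⟨z, hz, by linarith⟩

/-- strong maximum principle, local form -/
theorem const_of_local_max {u : E → ℝ} {Ω : Set E} (hc : ContinuousOn u Ω)
    (hs : InfSubharmonicOn u Ω) {x₀ : E} {r : ℝ} (hr : 0 < r) (hB : closedBall x₀ r ⊆ Ω)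
    (hmax : ∀ y ∈ closedBall x₀ r, u y ≤ u x₀) :
    ∀ z ∈ ball x₀ (r / 3), u z = u x₀ := by
  intro z hz
  have hz' : dist z x₀ < r / 3 := hz
  have hsubz : closedBall z (r / 2) ⊆ closedBall x₀ r := by
    apply closedBall_subset_closedBall'
    linarith
  have hx₀z : x₀ ∈ closedBall z (r / 2) := by
    rw [mem_closedBall, dist_comm]; linarith
  have := cone_above hc hs (by positivity : 0 < r / 2) (hsubz.trans hB)
    (a := (u x₀ - u z) / (r / 2)) (fun w hw => by
      have h1 := hmax w (hsubz (sphere_subset_closedBall hw))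
      have h2 : (u x₀ - u z) / (r / 2) * (r / 2) = u x₀ - u z := by field_simp
      linarith) x₀ hx₀z
  have hle : u z ≤ u x₀ := hmax z (hsubz (mem_closedBall_self (by positivity)))
  have hn : ‖x₀ - z‖ < r / 3 := by rw [← dist_eq_norm, dist_comm]; exact hz'
  have h3 : (u x₀ - u z) / (r / 2) * ‖x₀ - z‖ ≤ (u x₀ - u z) * (2 / 3) := by
    have : (u x₀ - u z) / (r / 2) * ‖x₀ - z‖ = (u x₀ - u z) * (‖x₀ - z‖ / (r / 2)) := by ring
    rw [this]
    apply mul_le_mul_of_nonneg_left _ (by linarith)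
    rw [div_le_iff₀ (by positivity)]
    linarith
  linarith

theorem const_of_local_min {u : E → ℝ} {Ω : Set E} (hc : ContinuousOn u Ω)
    (hs : InfSuperharmonicOn u Ω) {x₀ : E} {r : ℝ} (hr : 0 < r) (hB : closedBall x₀ r ⊆ Ω)
    (hmin : ∀ y ∈ closedBall x₀ r, u x₀ ≤ u y) :
    ∀ z ∈ ball x₀ (r / 3), u z = u x₀ := by
  intro z hz
  have hc' : ContinuousOn (fun x => - u x) Ω := hc.neg
  have := const_of_local_max hc' hs.neg hr hB (fun y hy => by have := hmin y hy; linarith) z hz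
  linarith

end Vale.Agent.Lib.P080
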