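import Vale.Agent.Lib.P080.Slope

namespace Vale.Agent.Lib.P080

open scoped RealInnerProductSpace Topology
open Set Metric Filter

set_option linter.unusedSectionVars false

variable {E : Type*} [NormedAddCommGroup E] [InnerProductSpace ℝ E] [ProperSpace E]

theorem norm_add_smul_le {e h : E} {t : ℝ} (he : ‖e‖ = 1) (ht : 0 < t) (hh : ‖h‖ ≤ t) :
    ‖h + t • e‖ ≤ t + ⟪e, h⟫ + ‖h‖ ^ 2 / (2 * t) := by
  have hc : -‖h‖ ≤ ⟪e, h⟫ := by
    have := abs_real_inner_le_norm e h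
    rw [he, one_mul] at this
    exact (abs_le.mp this).1
  set q : ℝ := ‖h‖ ^ 2 / (2 * t) with hq
  have hq0 : 0 ≤ q := by positivity
  have hq1 : 2 * t * q = ‖h‖ ^ 2 := by rw [hq]; field_simp
  have hY : 0 ≤ t + ⟪e, h⟫ + q := by linarith
  apply (sq_le_sq₀ (norm_nonneg _) hY).mp
  rw [norm_add_sq_real, norm_smul, he, real_inner_smul_right, real_inner_comm,
    Real.norm_of_nonneg ht.le]
  nlinarith [sq_nonneg (⟪e, h⟫ + q)]

/-- pure inner-product geometry: closeness of unit vectors -/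
theorem dirs_close {n e f : E} {S ε' μ : ℝ} (hS : 0 < S) (hε' : 0 < ε')
    (hn : ‖n‖ = 1) (he : ‖e‖ = 1) (hf : ‖f‖ = 1)
    (hSLc : S ≤ (S + ε') * ⟪n, e⟫) (h4 : 2 * S ≤ (S + ε') * ‖e + f‖)
    (hμ0 : 0 ≤ μ) (hμ : 20 * (S + ε') * ε' ≤ μ ^ 2) :
    (S + ε') * ‖n - e‖ ≤ μ ∧ (S + ε') * ‖n - f‖ ≤ μ := by
  set L : ℝ := S + ε' with hL
  have hL0 : 0 < L := by positivity
  have h3 : L * ‖n - e‖ ^ 2 ≤ 2 * ε' := by
    rw [norm_sub_sq_real, hn, he]
    have : L * (1 ^ 2 - 2 * ⟪n, e⟫ + 1 ^ 2) = 2 * L - 2 * (L * ⟪n, e⟫) := by ring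
    rw [this]
    linarith
  have h5 : L * ‖e - f‖ ^ 2 ≤ 8 * ε' := by
    have hpar : ‖e - f‖ ^ 2 = 4 - ‖e + f‖ ^ 2 := by
      have := parallelogram_law_with_norm ℝ e f
      rw [he, hf] at this
      nlinarith
    have h6 : (2 * S) ^ 2 ≤ (L * ‖e + f‖) ^ 2 := pow_le_pow_left₀ (by positivity) h4 2
    have h7 : L * (L * ‖e - f‖ ^ 2) ≤ L * (8 * ε') := by
      have h8 : L * (L * ‖e - f‖ ^ 2) = 4 * L ^ 2 - (L * ‖e + f‖) ^ 2 := by
        rw [hpar]; ring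
      rw [h8]
      have h9 : 4 * L ^ 2 - (2 * S) ^ 2 = 4 * ε' * (2 * S + ε') := by rw [hL]; ring
      have h10 : 4 * ε' * (2 * S + ε') ≤ L * (8 * ε') := by
        rw [hL]; nlinarith [mul_pos hε' hε']
      linarith
    exact le_of_mul_le_mul_left h7 hL0
  have h6 : L * ‖n - f‖ ^ 2 ≤ 20 * ε' := by
    have h7 : ‖n - f‖ ^ 2 ≤ 2 * ‖n - e‖ ^ 2 + 2 * ‖e - f‖ ^ 2 := by
      have h8 : n - f = (n - e) + (e - f) := by abel
      have h9 := norm_add_le (n - e) (e - f)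
      rw [← h8] at h9
      have h10 : ‖n - f‖ ^ 2 ≤ (‖n - e‖ + ‖e - f‖) ^ 2 :=
        pow_le_pow_left₀ (norm_nonneg _) h9 2
      nlinarith [sq_nonneg (‖n - e‖ - ‖e - f‖)]
    calc L * ‖n - f‖ ^ 2 ≤ L * (2 * ‖n - e‖ ^ 2 + 2 * ‖e - f‖ ^ 2) := by gcongr
      _ = 2 * (L * ‖n - e‖ ^ 2) + 2 * (L * ‖e - f‖ ^ 2) := by ring
      _ ≤ 20 * ε' := by linarith
  constructor
  · apply (sq_le_sq₀ (by positivity) hμ0).mp
    calc (L * ‖n - e‖) ^ 2 = L * (L * ‖n - e‖ ^ 2) := by ring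
      _ ≤ L * (2 * ε') := by gcongr
      _ ≤ 20 * L * ε' := by nlinarith [mul_pos hL0 hε']
      _ ≤ μ ^ 2 := hμ
  · apply (sq_le_sq₀ (by positivity) hμ0).mp
    calc (L * ‖n - f‖) ^ 2 = L * (L * ‖n - f‖ ^ 2) := by ring
      _ ≤ L * (20 * ε') := by gcongr
      _ = 20 * L * ε' := by ring
      _ ≤ μ ^ 2 := hμ

theorem tight_dirs {u : E → ℝ} {x₀ n e f : E} {S ε' δ t : ℝ}
    (hS : 0 < S) (hε' : 0 < ε') (ht : 0 < t) (htδ : t < δ)
    (hLip : ∀ y ∈ ball x₀ δ, ∀ z ∈ ball x₀ δ, u y - u z ≤ (S + ε') * ‖y - z‖)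
    (hn : ‖n‖ = 1) (he : ‖e‖ = 1) (hf : ‖f‖ = 1)
    (hz : S * t ≤ u x₀ - u (x₀ - t • e)) (hy : S * t ≤ u (x₀ + t • f) - u x₀)
    (hH : ∀ h : E, ‖h‖ ≤ t → u (x₀ + h) < u x₀ → ⟪n, h⟫ < 0) :
    S ≤ (S + ε') * ⟪n, e⟫ ∧ 2 * S ≤ (S + ε') * ‖e + f‖ := by
  set L : ℝ := S + ε' with hL
  have hL0 : 0 < L := by positivity
  have hmem : ∀ h : E, ‖h‖ ≤ t → x₀ + h ∈ ball x₀ δ := by
    intro h hh
    rw [mem_ball, dist_eq_norm, add_sub_cancel_left]
    linarith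
  have hnte : ‖-(t • e)‖ = t := by
    rw [norm_neg, norm_smul, he, Real.norm_of_nonneg ht.le, mul_one]
  have hntf : ‖t • f‖ = t := by
    rw [norm_smul, hf, Real.norm_of_nonneg ht.le, mul_one]
  have hzmem : x₀ - t • e ∈ ball x₀ δ := by
    have := hmem (-(t • e)) hnte.le
    rwa [← sub_eq_add_neg] at this
  set c : ℝ := ⟪n, e⟫ with hc
  have hSt : 0 < S * t := by positivity
  have hc0 : 0 < c := by
    have h1 : u (x₀ + -(t • e)) < u x₀ := by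
      rw [← sub_eq_add_neg]; linarith
    have h2 := hH _ hnte.le h1
    rw [inner_neg_right, real_inner_smul_right] at h2
    by_contra hcon
    push Not at hcon
    have : t * c ≤ 0 := mul_nonpos_of_nonneg_of_nonpos ht.le hcon
    linarith
  constructor
  · set h₁ : E := -(t • e) + (t * c) • n with hh₁
    have hin : ⟪n, h₁⟫ = 0 := by
      rw [hh₁, inner_add_right, inner_neg_right, real_inner_smul_right, real_inner_smul_right,
        real_inner_self_eq_norm_sq, hn]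
      ring
    have hnorm : ‖h₁‖ ≤ t := by
      apply (sq_le_sq₀ (norm_nonneg _) ht.le).mp
      rw [hh₁, norm_add_sq_real, hnte, inner_neg_left, real_inner_smul_left,
        real_inner_smul_right, real_inner_comm, norm_smul, hn,
        Real.norm_of_nonneg (by positivity)]
      nlinarith [sq_nonneg (t * c)]
    have h1 : ¬ u (x₀ + h₁) < u x₀ := by
      intro hlt
      have := hH h₁ hnorm hlt
      rw [hin] at this
      exact lt_irrefl _ this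
    push Not at h1
    have h2 := hLip _ (hmem h₁ hnorm) _ hzmem
    have h3 : x₀ + h₁ - (x₀ - t • e) = (t * c) • n := by
      rw [hh₁]; abel
    rw [h3, norm_smul, hn, Real.norm_of_nonneg (by positivity), mul_one] at h2
    have h4 : S * t ≤ L * c * t := by
      have : L * c * t = L * (t * c) := by ring
      linarith
    exact le_of_mul_le_mul_right h4 ht
  · have h2 := hLip _ (hmem (t • f) hntf.le) _ hzmem
    have h3 : x₀ + t • f - (x₀ - t • e) = t • (e + f) := by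
      rw [smul_add]; abel
    rw [h3, norm_smul, Real.norm_of_nonneg ht.le] at h2
    have h5 : 2 * S * t ≤ L * ‖e + f‖ * t := by
      have : L * ‖e + f‖ * t = L * (t * ‖e + f‖) := by ring
      linarith
    exact le_of_mul_le_mul_right h5 ht

theorem tight_estimate {u : E → ℝ} {x₀ n e f : E} {S ε' δ t μ : ℝ}
    (hS : 0 < S) (hε' : 0 < ε') (ht : 0 < t) (htδ : t < δ)
    (hLip : ∀ y ∈ ball x₀ δ, ∀ z ∈ ball x₀ δ, u y - u z ≤ (S + ε') * ‖y - z‖)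
    (hn : ‖n‖ = 1) (he : ‖e‖ = 1) (hf : ‖f‖ = 1)
    (hz : S * t ≤ u x₀ - u (x₀ - t • e)) (hy : S * t ≤ u (x₀ + t • f) - u x₀)
    (hH : ∀ h : E, ‖h‖ ≤ t → u (x₀ + h) < u x₀ → ⟪n, h⟫ < 0)
    (hμ0 : 0 ≤ μ) (hμ : 20 * (S + ε') * ε' ≤ μ ^ 2) :
    ∀ h : E, ‖h‖ ≤ t → |u (x₀ + h) - u x₀ - S * ⟪n, h⟫|
      ≤ ε' * t + (S + ε') * (‖h‖ ^ 2 / (2 * t)) + ε' * ‖h‖ + μ * ‖h‖ := by
  obtain ⟨hd1, hd2⟩ := tight_dirs hS hε' ht htδ hLip hn he hf hz hy hH
  obtain ⟨h7e, h7f⟩ := dirs_close hS hε' hn he hf hd1 hd2 hμ0 hμ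
  set L : ℝ := S + ε' with hL
  have hL0 : 0 < L := by positivity
  have hmem : ∀ h : E, ‖h‖ ≤ t → x₀ + h ∈ ball x₀ δ := by
    intro h hh
    rw [mem_ball, dist_eq_norm, add_sub_cancel_left]
    linarith
  have hnte : ‖-(t • e)‖ = t := by
    rw [norm_neg, norm_smul, he, Real.norm_of_nonneg ht.le, mul_one]
  have hntf : ‖t • f‖ = t := by
    rw [norm_smul, hf, Real.norm_of_nonneg ht.le, mul_one]
  have hzmem : x₀ - t • e ∈ ball x₀ δ := by
    have := hmem (-(t • e)) hnte.le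
    rwa [← sub_eq_add_neg] at this
  intro h hh
  have hnh : |⟪n, h⟫| ≤ ‖h‖ := by
    have := abs_real_inner_le_norm n h
    rwa [hn, one_mul] at this
  have hnh1 : ε' * (-‖h‖) ≤ ε' * ⟪n, h⟫ := by
    have := (abs_le.mp hnh).1
    gcongr
  have hnh2 : ε' * ⟪n, h⟫ ≤ ε' * ‖h‖ := by
    have := (abs_le.mp hnh).2
    gcongr
  have hLS : L * ⟪n, h⟫ = S * ⟪n, h⟫ + ε' * ⟪n, h⟫ := by rw [hL]; ring
  have hLt : L * t = S * t + ε' * t := by rw [hL]; ring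
  rw [abs_le]
  constructor
  · -- lower bound
    have h2 := hLip _ (hmem (t • f) hntf.le) _ (hmem h hh)
    have h8 : x₀ + t • f - (x₀ + h) = -h + t • f := by abel
    rw [h8] at h2
    have h9 := norm_add_smul_le (h := -h) hf ht (by rwa [norm_neg])
    rw [norm_neg, inner_neg_right] at h9
    have h10 : L * ‖-h + t • f‖ ≤ L * (t + -⟪f, h⟫ + ‖h‖ ^ 2 / (2 * t)) := by gcongr
    have h11 : L * ⟪n - f, h⟫ ≤ μ * ‖h‖ := by
      calc L * ⟪n - f, h⟫ ≤ L * (‖n - f‖ * ‖h‖) := by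
            gcongr; exact real_inner_le_norm _ _
        _ = (L * ‖n - f‖) * ‖h‖ := by ring
        _ ≤ μ * ‖h‖ := by gcongr
    rw [inner_sub_left, mul_sub] at h11
    have h12 : L * (t + -⟪f, h⟫ + ‖h‖ ^ 2 / (2 * t))
        = L * t - L * ⟪f, h⟫ + L * (‖h‖ ^ 2 / (2 * t)) := by ring
    linarith
  · -- upper bound
    have h2 := hLip _ (hmem h hh) _ hzmem
    have h8 : x₀ + h - (x₀ - t • e) = h + t • e := by abel
    rw [h8] at h2
    have h9 := norm_add_smul_le he ht hh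
    have h10 : L * ‖h + t • e‖ ≤ L * (t + ⟪e, h⟫ + ‖h‖ ^ 2 / (2 * t)) := by gcongr
    have h11 : L * ⟪e - n, h⟫ ≤ μ * ‖h‖ := by
      calc L * ⟪e - n, h⟫ ≤ L * (‖e - n‖ * ‖h‖) := by
            gcongr; exact real_inner_le_norm _ _
        _ = (L * ‖n - e‖) * ‖h‖ := by rw [norm_sub_rev]; ring
        _ ≤ μ * ‖h‖ := by gcongr
    rw [inner_sub_left, mul_sub] at h11
    have h12 : L * (t + ⟪e, h⟫ + ‖h‖ ^ 2 / (2 * t))
        = L * t + L * ⟪e, h⟫ + L * (‖h‖ ^ 2 / (2 * t)) := by ring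
    linarith

end Vale.Agent.Lib.P080
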